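import Vale.Agent.H2.P034.Iter

/-! P034: the ratio of the fractional and the integral expectation threshold is `O(log* |X|)`. -/

namespace Vale.Agent.Results.P034.LogStar

open Finset

variable {X : Type} [Fintype X] [DecidableEq X]

/-- `G` covers `F`: every member of `F` contains some `S ∈ G`. -/
def Covers (G : Finset (Finset X)) (F : Set (Finset X)) : Prop :=
  ∀ H ∈ F, ∃ S ∈ G, S ⊆ H

/-- `F` is `p`-small: some cover has cost `∑ p^|S|` at most `1/2`. -/
def Small (F : Set (Finset X)) (p : ℝ) : Prop :=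
  ∃ G : Finset (Finset X), Covers G F ∧ ∑ S ∈ G, p ^ S.card ≤ 1 / 2

/-- `g` is a fractional cover of `F`. -/
def FracCover (g : Finset X → ℝ) (F : Set (Finset X)) : Prop :=
  (∀ S, 0 ≤ g S ∧ g S ≤ 1) ∧ ∀ H ∈ F, 1 ≤ ∑ S ∈ H.powerset, g S

/-- The `p ∈ [0,1]` such that `F` is `p`-small. -/
def smallSet (F : Set (Finset X)) : Set ℝ := {p | 0 ≤ p ∧ p ≤ 1 ∧ Small F p}

/-- The `p ∈ [0,1]` such that some fractional cover of `F` has cost at most `1/2` at `p`. -/
def fracSet (F : Set (Finset X)) : Set ℝ :=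
  {p | 0 ≤ p ∧ p ≤ 1 ∧ ∃ g : Finset X → ℝ, FracCover g F ∧ ∑ S, g S * p ^ S.card ≤ 1 / 2}

/-- The integral expectation threshold `q(F)`. -/
noncomputable def q (F : Set (Finset X)) : ℝ := sSup (smallSet F)

/-- The fractional expectation threshold `q_f(F)`. -/
noncomputable def qf (F : Set (Finset X)) : ℝ := sSup (fracSet F)

/-- The tower function `1, 2, 4, 16, 65536, …`. -/
def tower : ℕ → ℕ
  | 0 => 1
  | n + 1 => 2 ^ tower n

/-- The iterated logarithm `log* N`: the least `n` with `N ≤ tower n`. -/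
noncomputable def logStar (N : ℕ) : ℕ := sInf {n | N ≤ tower n}

theorem tower_eq (n : ℕ) : tower n = Vale.Agent.H2.P034.tower n := by
  induction n with
  | zero => rfl
  | succ n ih => simp only [tower, Vale.Agent.H2.P034.tower, ih]

theorem lt_tower (n : ℕ) : n < tower n := by
  induction n with
  | zero => norm_num [tower]
  | succ n ih =>
    have : tower n < 2 ^ tower n := Nat.lt_two_pow_self
    simp only [tower]; omega

theorem le_tower_logStar (N : ℕ) : N ≤ tower (logStar N) :=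
  Nat.sInf_mem (s := {n | N ≤ tower n}) ⟨N, (lt_tower N).le⟩

theorem small_of_frac (F : Set (Finset X)) (n : ℕ) (hn : Fintype.card X ≤ tower n) {p : ℝ}
    (hp : p ∈ fracSet F) : p / (36 * ((n : ℝ) + 1)) ∈ smallSet F := by
  obtain ⟨hp0, hp1, g, ⟨hg, hcov⟩, hw⟩ := hp
  have hn1 : (0 : ℝ) < 36 * ((n : ℝ) + 1) := by positivity
  set r : ℝ := p / (36 * ((n : ℝ) + 1)) with hr
  have hr0 : 0 ≤ r := by positivity
  have hr36 : r ≤ 1 / 36 := by
    rw [hr, div_le_iff₀ hn1]
    have : (0 : ℝ) ≤ n := Nat.cast_nonneg n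
    nlinarith
  have hrn : ((n : ℝ) + 1) * r = p / 36 := by
    rw [hr]; field_simp
  set a : ℝ := g ∅ with ha
  have hsplit : ∑ S : Finset X, g S * p ^ S.card
      = a + ∑ S ∈ univ.erase (∅ : Finset X), g S * p ^ S.card := by
    rw [← Finset.add_sum_erase univ _ (Finset.mem_univ (∅ : Finset X))]
    simp [ha]
  have hrest : 0 ≤ ∑ S ∈ univ.erase (∅ : Finset X), g S * p ^ S.card :=
    Finset.sum_nonneg (fun S _ => mul_nonneg (hg S).1 (pow_nonneg hp0 _))
  have ha0 : 0 ≤ a := (hg ∅).1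
  have ha1 : a ≤ 1 / 2 := by linarith
  set γ : Finset X → ℝ := fun S => if S = ∅ then 0 else g S / (1 - a) with hγdef
  have hγ : ∀ S, 0 ≤ γ S := by
    intro S; simp only [hγdef]; split_ifs
    · exact le_refl _
    · exact div_nonneg (hg S).1 (by linarith)
  have hγsum : ∀ H ∈ F, 1 ≤ ∑ S ∈ H.powerset, γ S := by
    intro H hH
    have h1 := hcov H hH
    rw [← Finset.add_sum_erase _ _ (Finset.empty_mem_powerset H)] at h1 ⊢
    have h2 : ∑ S ∈ H.powerset.erase ∅, γ S = (∑ S ∈ H.powerset.erase ∅, g S) / (1 - a) := by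
      rw [Finset.sum_div]
      refine Finset.sum_congr rfl (fun S hS => ?_)
      simp only [hγdef]
      rw [if_neg (Finset.ne_of_mem_erase hS)]
    have h3 : γ ∅ = 0 := by simp [hγdef]
    rw [h2, h3, zero_add, le_div_iff₀ (by linarith)]
    linarith
  have hc : Vale.Agent.H2.P034.Lam γ (((n : ℝ) + 1) * r) ∅ ≤ 1 / 72 := by
    unfold Vale.Agent.H2.P034.Lam
    rw [hrn]
    simp only [Finset.sdiff_empty]
    rw [← Finset.add_sum_erase univ _ (Finset.mem_univ (∅ : Finset X))]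
    have h3 : γ ∅ = 0 := by simp [hγdef]
    rw [h3, zero_mul, zero_add]
    have h4 : ∀ S ∈ univ.erase (∅ : Finset X), γ S * (p / 36) ^ S.card
        ≤ (1 / 36) * (g S * p ^ S.card) / (1 - a) := by
      intro S hS
      have hS' : S ≠ ∅ := Finset.ne_of_mem_erase hS
      have h5 : 1 ≤ S.card := Finset.card_pos.mpr (Finset.nonempty_iff_ne_empty.mpr hS')
      simp only [hγdef]
      rw [if_neg hS', div_pow]
      have h6 : (36 : ℝ) ≤ 36 ^ S.card := by
        calc (36 : ℝ) = 36 ^ 1 := by norm_num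
          _ ≤ 36 ^ S.card := pow_le_pow_right₀ (by norm_num) h5
      have h7 : p ^ S.card / 36 ^ S.card ≤ p ^ S.card / 36 :=
        div_le_div_of_nonneg_left (pow_nonneg hp0 _) (by norm_num) h6
      calc g S / (1 - a) * (p ^ S.card / 36 ^ S.card)
          ≤ g S / (1 - a) * (p ^ S.card / 36) :=
            mul_le_mul_of_nonneg_left h7 (div_nonneg (hg S).1 (by linarith))
        _ = _ := by ring
    refine le_trans (Finset.sum_le_sum h4) ?_
    rw [← Finset.sum_div, ← Finset.mul_sum, div_le_iff₀ (by linarith)]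
    linarith
  obtain ⟨G, hG1, hG2⟩ := Vale.Agent.H2.P034.exists_cover hγ hr0 n (c := 1 / 72) (by norm_num) hc
  refine ⟨hr0, by linarith, G, fun H hH => hG1 H (hγsum H hH), le_trans hG2 ?_⟩
  have h8 : Real.exp (-(Vale.Agent.H2.P034.Lseq n : ℝ)) * (1 + r) ^ (Fintype.card X) ≤ 1 / 8 := by
    set L : ℝ := (Vale.Agent.H2.P034.Lseq n : ℝ) with hL
    have hL8 : (8 : ℝ) ≤ L := by
      have := Vale.Agent.H2.P034.le_Lseq n
      have h9 : 8 ≤ Vale.Agent.H2.P034.Lseq n := by omega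
      rw [hL]; exact_mod_cast h9
    have hN : ((Fintype.card X : ℕ) : ℝ) ≤ L := by
      rw [hL]
      have := Vale.Agent.H2.P034.tower_le n
      rw [← tower_eq] at this
      exact_mod_cast hn.trans this
    have h10 : (1 + r) ^ (Fintype.card X) ≤ Real.exp (r * L) := by
      calc (1 + r) ^ (Fintype.card X) ≤ (Real.exp r) ^ (Fintype.card X) := by
            refine pow_le_pow_left₀ (by linarith) ?_ _
            have := Real.add_one_le_exp r; linarith
        _ = Real.exp (((Fintype.card X : ℕ) : ℝ) * r) := by rw [← Real.exp_nat_mul]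
        _ ≤ Real.exp (r * L) := by
            rw [Real.exp_le_exp]; nlinarith
    calc Real.exp (-L) * (1 + r) ^ (Fintype.card X)
        ≤ Real.exp (-L) * Real.exp (r * L) :=
          mul_le_mul_of_nonneg_left h10 (Real.exp_pos _).le
      _ = Real.exp (-L + r * L) := by rw [Real.exp_add]
      _ ≤ Real.exp (-7) := by
          rw [Real.exp_le_exp]; nlinarith
      _ ≤ 1 / 8 := by
          rw [Real.exp_neg, one_div]
          refine inv_anti₀ (by norm_num) ?_
          have := Real.add_one_le_exp 7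
          linarith
  linarith

omit [DecidableEq X] in
theorem smallSet_isGreatest (F : Set (Finset X)) (h0 : ∅ ∉ F) : IsGreatest (smallSet F) (q F) := by
  have h1 : smallSet F = ⋃ G : Finset (Finset X),
      {p : ℝ | Covers G F ∧ 0 ≤ p ∧ p ≤ 1 ∧ ∑ S ∈ G, p ^ S.card ≤ 1 / 2} := by
    ext p
    simp only [smallSet, Small, Set.mem_ofPred_eq, Set.mem_iUnion]
    constructor
    · rintro ⟨a, b, G, c, d⟩; exact ⟨G, c, a, b, d⟩
    · rintro ⟨G, c, a, b, d⟩; exact ⟨a, b, G, c, d⟩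
  have h2 : IsClosed (smallSet F) := by
    rw [h1]
    refine isClosed_iUnion_of_finite (fun G => ?_)
    by_cases hG : Covers G F
    · have h3 : {p : ℝ | Covers G F ∧ 0 ≤ p ∧ p ≤ 1 ∧ ∑ S ∈ G, p ^ S.card ≤ 1 / 2}
          = {p : ℝ | 0 ≤ p} ∩ ({p : ℝ | p ≤ 1} ∩ {p : ℝ | ∑ S ∈ G, p ^ S.card ≤ 1 / 2}) := by
        ext p; simp [hG]
      rw [h3]
      refine (isClosed_le continuous_const continuous_id).inter
        ((isClosed_le continuous_id continuous_const).inter (isClosed_le ?_ continuous_const))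
      exact continuous_finsetSum _ (fun S _ => continuous_pow _)
    · have h3 : {p : ℝ | Covers G F ∧ 0 ≤ p ∧ p ≤ 1 ∧ ∑ S ∈ G, p ^ S.card ≤ 1 / 2} = ∅ := by
        ext p; simp [hG]
      rw [h3]; exact isClosed_empty
  have h3 : (0 : ℝ) ∈ smallSet F := by
    refine ⟨le_refl _, zero_le_one, univ.filter (fun S => S.Nonempty), ?_, ?_⟩
    · intro H hH
      refine ⟨H, ?_, Finset.Subset.refl _⟩
      rw [Finset.mem_filter]
      refine ⟨Finset.mem_univ _, Finset.nonempty_iff_ne_empty.mpr ?_⟩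
      rintro rfl; exact h0 hH
    · rw [Finset.sum_eq_zero]
      · norm_num
      · intro S hS
        rw [Finset.mem_filter] at hS
        exact zero_pow (Finset.card_pos.mpr hS.2).ne'
  have h4 : BddAbove (smallSet F) := ⟨1, fun p hp => hp.2.1⟩
  exact ⟨h2.csSup_mem ⟨0, h3⟩ h4, fun p hp => le_csSup h4 hp⟩

theorem fracSet_isGreatest (F : Set (Finset X)) (h0 : ∅ ∉ F) : IsGreatest (fracSet F) (qf F) := by
  have hK : IsCompact {x : ℝ × (Finset X → ℝ) | (0 ≤ x.1 ∧ x.1 ≤ 1) ∧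
      (∀ S, 0 ≤ x.2 S ∧ x.2 S ≤ 1) ∧ (∀ H ∈ F, 1 ≤ ∑ S ∈ H.powerset, x.2 S) ∧
      ∑ S, x.2 S * x.1 ^ S.card ≤ 1 / 2} := by
    have hbox : IsCompact ((Set.Icc (0 : ℝ) 1) ×ˢ (Set.Icc (0 : Finset X → ℝ) 1)) :=
      isCompact_Icc.prod isCompact_Icc
    refine hbox.of_isClosed_subset ?_ ?_
    · have c1 : Continuous (fun x : ℝ × (Finset X → ℝ) => x.1) := continuous_fst
      have c2 : ∀ S : Finset X, Continuous (fun x : ℝ × (Finset X → ℝ) => x.2 S) :=
        fun S => (continuous_apply S).comp continuous_snd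
      have k1 : IsClosed {x : ℝ × (Finset X → ℝ) | 0 ≤ x.1} := isClosed_le continuous_const c1
      have k2 : IsClosed {x : ℝ × (Finset X → ℝ) | x.1 ≤ 1} := isClosed_le c1 continuous_const
      have k3 : IsClosed (⋂ S : Finset X, {x : ℝ × (Finset X → ℝ) | 0 ≤ x.2 S}) :=
        isClosed_iInter (fun S => isClosed_le continuous_const (c2 S))
      have k4 : IsClosed (⋂ S : Finset X, {x : ℝ × (Finset X → ℝ) | x.2 S ≤ 1}) :=
        isClosed_iInter (fun S => isClosed_le (c2 S) continuous_const)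
      have k5 : IsClosed (⋂ H : Finset X, ⋂ _ : H ∈ F,
          {x : ℝ × (Finset X → ℝ) | 1 ≤ ∑ S ∈ H.powerset, x.2 S}) :=
        isClosed_iInter (fun H => isClosed_iInter (fun _ =>
          isClosed_le continuous_const (continuous_finsetSum _ (fun S _ => c2 S))))
      have k6 : IsClosed {x : ℝ × (Finset X → ℝ) | ∑ S, x.2 S * x.1 ^ S.card ≤ 1 / 2} :=
        isClosed_le (continuous_finsetSum _ (fun S _ => (c2 S).mul (c1.pow _))) continuous_const
      have k7 := ((((k1.inter k2).inter k3).inter k4).inter k5).inter k6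
      have k8 : {x : ℝ × (Finset X → ℝ) | (0 ≤ x.1 ∧ x.1 ≤ 1) ∧
          (∀ S, 0 ≤ x.2 S ∧ x.2 S ≤ 1) ∧ (∀ H ∈ F, 1 ≤ ∑ S ∈ H.powerset, x.2 S) ∧
          ∑ S, x.2 S * x.1 ^ S.card ≤ 1 / 2}
          = ((((({x : ℝ × (Finset X → ℝ) | 0 ≤ x.1} ∩ {x : ℝ × (Finset X → ℝ) | x.1 ≤ 1})
            ∩ ⋂ S : Finset X, {x : ℝ × (Finset X → ℝ) | 0 ≤ x.2 S})
            ∩ ⋂ S : Finset X, {x : ℝ × (Finset X → ℝ) | x.2 S ≤ 1})
            ∩ ⋂ H : Finset X, ⋂ _ : H ∈ F,
              {x : ℝ × (Finset X → ℝ) | 1 ≤ ∑ S ∈ H.powerset, x.2 S})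
            ∩ {x : ℝ × (Finset X → ℝ) | ∑ S, x.2 S * x.1 ^ S.card ≤ 1 / 2}) := by
        ext x
        constructor
        · rintro ⟨⟨a, b⟩, c, d, e⟩
          refine ⟨⟨⟨⟨⟨a, b⟩, ?_⟩, ?_⟩, ?_⟩, e⟩
          · exact Set.mem_iInter.mpr (fun S => (c S).1)
          · exact Set.mem_iInter.mpr (fun S => (c S).2)
          · exact Set.mem_iInter.mpr (fun H => Set.mem_iInter.mpr (fun hH => d H hH))
        · rintro ⟨⟨⟨⟨⟨a, b⟩, c⟩, c'⟩, d⟩, e⟩
          refine ⟨⟨a, b⟩, fun S => ⟨Set.mem_iInter.mp c S, Set.mem_iInter.mp c' S⟩, ?_, e⟩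
          intro H hH
          exact Set.mem_iInter.mp (Set.mem_iInter.mp d H) hH
      rw [k8]; exact k7
    · rintro ⟨p, g⟩ ⟨⟨h1, h2⟩, h3, _⟩
      exact ⟨⟨h1, h2⟩, fun S => (h3 S).1, fun S => (h3 S).2⟩
  have h1 : fracSet F = Prod.fst '' {x : ℝ × (Finset X → ℝ) | (0 ≤ x.1 ∧ x.1 ≤ 1) ∧
      (∀ S, 0 ≤ x.2 S ∧ x.2 S ≤ 1) ∧ (∀ H ∈ F, 1 ≤ ∑ S ∈ H.powerset, x.2 S) ∧
      ∑ S, x.2 S * x.1 ^ S.card ≤ 1 / 2} := by
    ext p
    simp only [fracSet, FracCover, Set.mem_ofPred_eq, Set.mem_image, Prod.exists,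
      exists_and_right, exists_eq_right]
    constructor
    · rintro ⟨a, b, g, ⟨c, d⟩, e⟩; exact ⟨g, ⟨a, b⟩, c, d, e⟩
    · rintro ⟨g, ⟨a, b⟩, c, d, e⟩; exact ⟨a, b, g, ⟨c, d⟩, e⟩
  have h2 : IsClosed (fracSet F) := by
    rw [h1]; exact (hK.image continuous_fst).isClosed
  have h3 : (0 : ℝ) ∈ fracSet F := by
    refine ⟨le_refl _, zero_le_one, fun S => if S = ∅ then 0 else 1, ⟨?_, ?_⟩, ?_⟩
    · intro S
      by_cases hS : S = ∅
      · simp [hS]
      · simp [hS]
    · intro H hH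
      have hH' : H ≠ ∅ := by rintro rfl; exact h0 hH
      have h6 := Finset.single_le_sum (f := fun S : Finset X => if S = ∅ then (0 : ℝ) else 1)
        (fun S _ => by by_cases hS : S = ∅ <;> simp [hS]) (Finset.mem_powerset_self H)
      rw [if_neg hH'] at h6
      exact h6
    · rw [Finset.sum_eq_zero]
      · norm_num
      · intro S _
        by_cases hS : S = ∅
        · simp [hS]
        · rw [zero_pow (Finset.card_pos.mpr (Finset.nonempty_iff_ne_empty.mpr hS)).ne', mul_zero]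
  have h4 : BddAbove (fracSet F) := ⟨1, fun p hp => hp.2.1⟩
  exact ⟨h2.csSup_mem ⟨0, h3⟩ h4, fun p hp => le_csSup h4 hp⟩

/-- `q(F) ≤ q_f(F) ≤ 36 (log*|X| + 1) q(F)`. -/
theorem result {X : Type} [Fintype X] [DecidableEq X] [Nonempty X] (F : Set (Finset X))
    (hne : F.Nonempty) (hup : ∀ A ∈ F, ∀ B : Finset X, A ⊆ B → B ∈ F) (h0 : ∅ ∉ F) :
    IsGreatest (smallSet F) (q F) ∧ IsGreatest (fracSet F) (qf F) ∧
      qf F ≤ 36 * ((logStar (Fintype.card X) : ℝ) + 1) * q F := by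
  have h1 := smallSet_isGreatest F h0
  have h2 := fracSet_isGreatest F h0
  refine ⟨h1, h2, ?_⟩
  have h3 := h1.2 (small_of_frac F (logStar (Fintype.card X)) (le_tower_logStar _) h2.1)
  rw [div_le_iff₀ (by positivity)] at h3
  linarith

end Vale.Agent.Results.P034.LogStar
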