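import Vale.Agent.H3.P034.Main

/-! P034 (Talagrand's conjecture): the fractional expectation threshold is at most a universal
constant times the integral expectation threshold. -/

namespace Vale.Agent.Results.P034.Universal

open Finset

variable {X : Type} [Fintype X] [DecidableEq X]

/-- `G` covers `F`: every member of `F` contains some `S ∈ G`. -/
def Covers (G : Finset (Finset X)) (F : Set (Finset X)) : Prop :=
  ∀ H ∈ F, ∃ S ∈ G, S ⊆ H

/-- `F` is `p`-small: some cover has cost `∑ p^|S|` at most `1/2`. -/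
def Small (F : Set (Finset X)) (p : ℝ) : Prop :=
  ∃ G : Finset (Finset X), Covers G F ∧ ∑ S ∈ G, p ^ S.card ≤ 1 / 2

/-- `g` is a fractional cover of `F`. -/
def FracCover (g : Finset X → ℝ) (F : Set (Finset X)) : Prop :=
  (∀ S, 0 ≤ g S ∧ g S ≤ 1) ∧ ∀ H ∈ F, 1 ≤ ∑ S ∈ H.powerset, g S

/-- The `p ∈ [0,1]` such that `F` is `p`-small. -/
def smallSet (F : Set (Finset X)) : Set ℝ := {p | 0 ≤ p ∧ p ≤ 1 ∧ Small F p}

/-- The `p ∈ [0,1]` such that some fractional cover of `F` has cost at most `1/2` at `p`. -/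
def fracSet (F : Set (Finset X)) : Set ℝ :=
  {p | 0 ≤ p ∧ p ≤ 1 ∧ ∃ g : Finset X → ℝ, FracCover g F ∧ ∑ S, g S * p ^ S.card ≤ 1 / 2}

/-- The integral expectation threshold `q(F)`. -/
noncomputable def q (F : Set (Finset X)) : ℝ := sSup (smallSet F)

/-- The fractional expectation threshold `q_f(F)`. -/
noncomputable def qf (F : Set (Finset X)) : ℝ := sSup (fracSet F)

theorem small_of_frac (F : Set (Finset X)) (h0 : ∅ ∉ F) {p : ℝ}
    (hp : p ∈ fracSet F) : p / 65536 ∈ smallSet F := by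
  obtain ⟨hp0, hp1, g, ⟨hg, hcov⟩, hw⟩ := hp
  rcases hp0.eq_or_lt with hp00 | hppos
  · -- `p = 0`
    refine ⟨by rw [← hp00]; norm_num, by rw [← hp00]; norm_num,
      univ.filter (fun S => S.Nonempty), ?_, ?_⟩
    · intro H hH
      refine ⟨H, ?_, Finset.Subset.refl _⟩
      rw [Finset.mem_filter]
      refine ⟨Finset.mem_univ _, Finset.nonempty_iff_ne_empty.mpr ?_⟩
      rintro rfl; exact h0 hH
    · rw [Finset.sum_eq_zero]
      · norm_num
      · intro S hS
        rw [Finset.mem_filter] at hS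
        rw [← hp00, zero_div]
        exact zero_pow (Finset.card_pos.mpr hS.2).ne'
  set a : ℝ := g ∅ with ha
  have hsplit : ∑ S : Finset X, g S * p ^ S.card
      = a + ∑ S ∈ univ.erase (∅ : Finset X), g S * p ^ S.card := by
    rw [← Finset.add_sum_erase univ _ (Finset.mem_univ (∅ : Finset X))]
    simp [ha]
  have hrest : 0 ≤ ∑ S ∈ univ.erase (∅ : Finset X), g S * p ^ S.card :=
    Finset.sum_nonneg (fun S _ => mul_nonneg (hg S).1 (pow_nonneg hp0 _))
  have ha0 : 0 ≤ a := (hg ∅).1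
  have ha1 : a ≤ 1 / 2 := by linarith
  set γ : Finset X → ℝ := fun S => if S = ∅ then 0 else g S / (1 - a) with hγdef
  have hγ : ∀ S, 0 ≤ γ S := by
    intro S; simp only [hγdef]; split_ifs
    · exact le_refl _
    · exact div_nonneg (hg S).1 (by linarith)
  have hγ0 : γ ∅ = 0 := by simp [hγdef]
  have hγsum : ∀ H ∈ F, 1 ≤ ∑ S ∈ H.powerset, γ S := by
    intro H hH
    have h1 := hcov H hH
    rw [← Finset.add_sum_erase _ _ (Finset.empty_mem_powerset H)] at h1 ⊢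
    have h2 : ∑ S ∈ H.powerset.erase ∅, γ S = (∑ S ∈ H.powerset.erase ∅, g S) / (1 - a) := by
      rw [Finset.sum_div]
      refine Finset.sum_congr rfl (fun S hS => ?_)
      simp only [hγdef]
      rw [if_neg (Finset.ne_of_mem_erase hS)]
    rw [h2, hγ0, zero_add, le_div_iff₀ (by linarith)]
    linarith
  have hq : 0 < p / 65536 := by positivity
  have hc : ∑ S, γ S * (24576 * (p / 65536)) ^ S.card < 3 / 8 := by
    rw [← Finset.add_sum_erase univ _ (Finset.mem_univ (∅ : Finset X)), hγ0, zero_mul, zero_add]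
    have e : 24576 * (p / 65536) = 3 / 8 * p := by ring
    rw [e]
    have h4 : ∀ S ∈ univ.erase (∅ : Finset X), γ S * (3 / 8 * p) ^ S.card
        ≤ (3 / 8) * (g S * p ^ S.card) / (1 - a) := by
      intro S hS
      have hS' : S ≠ ∅ := Finset.ne_of_mem_erase hS
      have h5 : S.card ≠ 0 :=
        (Finset.card_pos.mpr (Finset.nonempty_iff_ne_empty.mpr hS')).ne'
      simp only [hγdef]
      rw [if_neg hS', mul_pow]
      have h6 : ((3 : ℝ) / 8) ^ S.card ≤ 3 / 8 :=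
        pow_le_of_le_one (by norm_num) (by norm_num) h5
      have h7 : ((3 : ℝ) / 8) ^ S.card * p ^ S.card ≤ 3 / 8 * p ^ S.card :=
        mul_le_mul_of_nonneg_right h6 (pow_nonneg hp0 _)
      calc g S / (1 - a) * (((3 : ℝ) / 8) ^ S.card * p ^ S.card)
          ≤ g S / (1 - a) * (3 / 8 * p ^ S.card) :=
            mul_le_mul_of_nonneg_left h7 (div_nonneg (hg S).1 (by linarith))
        _ = _ := by ring
    refine lt_of_le_of_lt (Finset.sum_le_sum h4) ?_
    rw [← Finset.sum_div, ← Finset.mul_sum, div_lt_iff₀ (by linarith)]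
    linarith
  obtain ⟨G, hG1, hG2⟩ := Vale.Agent.H3.P034.main F γ hγ hγ0 hγsum (p / 65536) hq hc
  exact ⟨hq.le, by linarith, G, hG1, hG2⟩

omit [DecidableEq X] in
theorem smallSet_isGreatest (F : Set (Finset X)) (h0 : ∅ ∉ F) : IsGreatest (smallSet F) (q F) := by
  have h1 : smallSet F = ⋃ G : Finset (Finset X),
      {p : ℝ | Covers G F ∧ 0 ≤ p ∧ p ≤ 1 ∧ ∑ S ∈ G, p ^ S.card ≤ 1 / 2} := by
    ext p
    simp only [smallSet, Small, Set.mem_ofPred_eq, Set.mem_iUnion]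
    constructor
    · rintro ⟨a, b, G, c, d⟩; exact ⟨G, c, a, b, d⟩
    · rintro ⟨G, c, a, b, d⟩; exact ⟨a, b, G, c, d⟩
  have h2 : IsClosed (smallSet F) := by
    rw [h1]
    refine isClosed_iUnion_of_finite (fun G => ?_)
    by_cases hG : Covers G F
    · have h3 : {p : ℝ | Covers G F ∧ 0 ≤ p ∧ p ≤ 1 ∧ ∑ S ∈ G, p ^ S.card ≤ 1 / 2}
          = {p : ℝ | 0 ≤ p} ∩ ({p : ℝ | p ≤ 1} ∩ {p : ℝ | ∑ S ∈ G, p ^ S.card ≤ 1 / 2}) := by
        ext p; simp [hG]
      rw [h3]
      refine (isClosed_le continuous_const continuous_id).inter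
        ((isClosed_le continuous_id continuous_const).inter (isClosed_le ?_ continuous_const))
      exact continuous_finsetSum _ (fun S _ => continuous_pow _)
    · have h3 : {p : ℝ | Covers G F ∧ 0 ≤ p ∧ p ≤ 1 ∧ ∑ S ∈ G, p ^ S.card ≤ 1 / 2} = ∅ := by
        ext p; simp [hG]
      rw [h3]; exact isClosed_empty
  have h3 : (0 : ℝ) ∈ smallSet F := by
    refine ⟨le_refl _, zero_le_one, univ.filter (fun S => S.Nonempty), ?_, ?_⟩
    · intro H hH
      refine ⟨H, ?_, Finset.Subset.refl _⟩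
      rw [Finset.mem_filter]
      refine ⟨Finset.mem_univ _, Finset.nonempty_iff_ne_empty.mpr ?_⟩
      rintro rfl; exact h0 hH
    · rw [Finset.sum_eq_zero]
      · norm_num
      · intro S hS
        rw [Finset.mem_filter] at hS
        exact zero_pow (Finset.card_pos.mpr hS.2).ne'
  have h4 : BddAbove (smallSet F) := ⟨1, fun p hp => hp.2.1⟩
  exact ⟨h2.csSup_mem ⟨0, h3⟩ h4, fun p hp => le_csSup h4 hp⟩

theorem fracSet_isGreatest (F : Set (Finset X)) (h0 : ∅ ∉ F) : IsGreatest (fracSet F) (qf F) := by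
  have hK : IsCompact {x : ℝ × (Finset X → ℝ) | (0 ≤ x.1 ∧ x.1 ≤ 1) ∧
      (∀ S, 0 ≤ x.2 S ∧ x.2 S ≤ 1) ∧ (∀ H ∈ F, 1 ≤ ∑ S ∈ H.powerset, x.2 S) ∧
      ∑ S, x.2 S * x.1 ^ S.card ≤ 1 / 2} := by
    have hbox : IsCompact ((Set.Icc (0 : ℝ) 1) ×ˢ (Set.Icc (0 : Finset X → ℝ) 1)) :=
      isCompact_Icc.prod isCompact_Icc
    refine hbox.of_isClosed_subset ?_ ?_
    · have c1 : Continuous (fun x : ℝ × (Finset X → ℝ) => x.1) := continuous_fst
      have c2 : ∀ S : Finset X, Continuous (fun x : ℝ × (Finset X → ℝ) => x.2 S) :=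
        fun S => (continuous_apply S).comp continuous_snd
      have k1 : IsClosed {x : ℝ × (Finset X → ℝ) | 0 ≤ x.1} := isClosed_le continuous_const c1
      have k2 : IsClosed {x : ℝ × (Finset X → ℝ) | x.1 ≤ 1} := isClosed_le c1 continuous_const
      have k3 : IsClosed (⋂ S : Finset X, {x : ℝ × (Finset X → ℝ) | 0 ≤ x.2 S}) :=
        isClosed_iInter (fun S => isClosed_le continuous_const (c2 S))
      have k4 : IsClosed (⋂ S : Finset X, {x : ℝ × (Finset X → ℝ) | x.2 S ≤ 1}) :=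
        isClosed_iInter (fun S => isClosed_le (c2 S) continuous_const)
      have k5 : IsClosed (⋂ H : Finset X, ⋂ _ : H ∈ F,
          {x : ℝ × (Finset X → ℝ) | 1 ≤ ∑ S ∈ H.powerset, x.2 S}) :=
        isClosed_iInter (fun H => isClosed_iInter (fun _ =>
          isClosed_le continuous_const (continuous_finsetSum _ (fun S _ => c2 S))))
      have k6 : IsClosed {x : ℝ × (Finset X → ℝ) | ∑ S, x.2 S * x.1 ^ S.card ≤ 1 / 2} :=
        isClosed_le (continuous_finsetSum _ (fun S _ => (c2 S).mul (c1.pow _))) continuous_const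
      have k7 := ((((k1.inter k2).inter k3).inter k4).inter k5).inter k6
      have k8 : {x : ℝ × (Finset X → ℝ) | (0 ≤ x.1 ∧ x.1 ≤ 1) ∧
          (∀ S, 0 ≤ x.2 S ∧ x.2 S ≤ 1) ∧ (∀ H ∈ F, 1 ≤ ∑ S ∈ H.powerset, x.2 S) ∧
          ∑ S, x.2 S * x.1 ^ S.card ≤ 1 / 2}
          = ((((({x : ℝ × (Finset X → ℝ) | 0 ≤ x.1} ∩ {x : ℝ × (Finset X → ℝ) | x.1 ≤ 1})
            ∩ ⋂ S : Finset X, {x : ℝ × (Finset X → ℝ) | 0 ≤ x.2 S})
            ∩ ⋂ S : Finset X, {x : ℝ × (Finset X → ℝ) | x.2 S ≤ 1})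
            ∩ ⋂ H : Finset X, ⋂ _ : H ∈ F,
              {x : ℝ × (Finset X → ℝ) | 1 ≤ ∑ S ∈ H.powerset, x.2 S})
            ∩ {x : ℝ × (Finset X → ℝ) | ∑ S, x.2 S * x.1 ^ S.card ≤ 1 / 2}) := by
        ext x
        constructor
        · rintro ⟨⟨a, b⟩, c, d, e⟩
          refine ⟨⟨⟨⟨⟨a, b⟩, ?_⟩, ?_⟩, ?_⟩, e⟩
          · exact Set.mem_iInter.mpr (fun S => (c S).1)
          · exact Set.mem_iInter.mpr (fun S => (c S).2)
          · exact Set.mem_iInter.mpr (fun H => Set.mem_iInter.mpr (fun hH => d H hH))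
        · rintro ⟨⟨⟨⟨⟨a, b⟩, c⟩, c'⟩, d⟩, e⟩
          refine ⟨⟨a, b⟩, fun S => ⟨Set.mem_iInter.mp c S, Set.mem_iInter.mp c' S⟩, ?_, e⟩
          intro H hH
          exact Set.mem_iInter.mp (Set.mem_iInter.mp d H) hH
      rw [k8]; exact k7
    · rintro ⟨p, g⟩ ⟨⟨h1, h2⟩, h3, _⟩
      exact ⟨⟨h1, h2⟩, fun S => (h3 S).1, fun S => (h3 S).2⟩
  have h1 : fracSet F = Prod.fst '' {x : ℝ × (Finset X → ℝ) | (0 ≤ x.1 ∧ x.1 ≤ 1) ∧
      (∀ S, 0 ≤ x.2 S ∧ x.2 S ≤ 1) ∧ (∀ H ∈ F, 1 ≤ ∑ S ∈ H.powerset, x.2 S) ∧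
      ∑ S, x.2 S * x.1 ^ S.card ≤ 1 / 2} := by
    ext p
    simp only [fracSet, FracCover, Set.mem_ofPred_eq, Set.mem_image, Prod.exists,
      exists_and_right, exists_eq_right]
    constructor
    · rintro ⟨a, b, g, ⟨c, d⟩, e⟩; exact ⟨g, ⟨a, b⟩, c, d, e⟩
    · rintro ⟨g, ⟨a, b⟩, c, d, e⟩; exact ⟨a, b, g, ⟨c, d⟩, e⟩
  have h2 : IsClosed (fracSet F) := by
    rw [h1]; exact (hK.image continuous_fst).isClosed
  have h3 : (0 : ℝ) ∈ fracSet F := by
    refine ⟨le_refl _, zero_le_one, fun S => if S = ∅ then 0 else 1, ⟨?_, ?_⟩, ?_⟩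
    · intro S
      by_cases hS : S = ∅
      · simp [hS]
      · simp [hS]
    · intro H hH
      have hH' : H ≠ ∅ := by rintro rfl; exact h0 hH
      have h6 := Finset.single_le_sum (f := fun S : Finset X => if S = ∅ then (0 : ℝ) else 1)
        (fun S _ => by by_cases hS : S = ∅ <;> simp [hS]) (Finset.mem_powerset_self H)
      rw [if_neg hH'] at h6
      exact h6
    · rw [Finset.sum_eq_zero]
      · norm_num
      · intro S _
        by_cases hS : S = ∅
        · simp [hS]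
        · rw [zero_pow (Finset.card_pos.mpr (Finset.nonempty_iff_ne_empty.mpr hS)).ne', mul_zero]
  have h4 : BddAbove (fracSet F) := ⟨1, fun p hp => hp.2.1⟩
  exact ⟨h2.csSup_mem ⟨0, h3⟩ h4, fun p hp => le_csSup h4 hp⟩

/-- **Talagrand's conjecture**: `q_f(F) ≤ 65536 q(F)` for every nonempty proper increasing family
of subsets of a finite nonempty set. -/
theorem result {X : Type} [Fintype X] [DecidableEq X] [Nonempty X] (F : Set (Finset X))
    (hne : F.Nonempty) (hup : ∀ A ∈ F, ∀ B : Finset X, A ⊆ B → B ∈ F) (h0 : ∅ ∉ F) :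
    IsGreatest (smallSet F) (q F) ∧ IsGreatest (fracSet F) (qf F) ∧ qf F ≤ 65536 * q F := by
  have h1 := smallSet_isGreatest F h0
  have h2 := fracSet_isGreatest F h0
  refine ⟨h1, h2, ?_⟩
  have h3 := h1.2 (small_of_frac F h0 h2.1)
  rw [div_le_iff₀ (by positivity)] at h3
  linarith

end Vale.Agent.Results.P034.Universal
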